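import Vale.Agent.Lib.P232.Main

open MeasureTheory

/-- **The isoperimetric profile of the cubic three-torus for volumes up to `1/4`.** Every measurable
`ℤ³`-periodic set `E ⊆ ℝ³` whose volume `V = |E ∩ [0,1)³|` lies in `(0, 1/4]` has De Giorgi perimeter
in the torus at least `min((36π)^{1/3} V^{2/3}, 2 √(πV))`, the smaller of the perimeters of the ball and
of the tube of volume `V`. -/
theorem Vale.Agent.Results.P232.ABallTubeRange.result (E : Set Vale.Agent.Lib.P232.R3)
    (hE : MeasurableSet E) (hper : Vale.Agent.Lib.P232.IsZ3Periodic E)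
    (hV : 0 < (volume (E ∩ Vale.Agent.Lib.P232.Q3)).toReal)
    (hV' : (volume (E ∩ Vale.Agent.Lib.P232.Q3)).toReal ≤ 1 / 4) :
    ENNReal.ofReal ((36 * Real.pi) ^ (1 / 3 : ℝ) * ((volume (E ∩ Vale.Agent.Lib.P232.Q3)).toReal) ^ (2 / 3 : ℝ)) ⊓
        ENNReal.ofReal (2 * Real.sqrt (Real.pi * (volume (E ∩ Vale.Agent.Lib.P232.Q3)).toReal)) ≤
      Vale.Agent.Lib.P232.Perim E := by
  have h := Vale.Agent.Lib.P232.main_perim hE hper hV hV'
  unfold Vale.Agent.Lib.P232.J at h
  rwa [ENNReal.ofReal_min] at h
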