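import Vale.Agent.Lib.P232.MainExt

open MeasureTheory

/-- **Two volume ranges for the cubic three-torus, without symmetrization.** Every measurable
`ℤ³`-periodic set `E ⊆ ℝ³` whose volume `V = |E ∩ [0,1)³|` lies in `(0, 1)`, with `v = min(V, 1 - V)` at
most `(527/1024)²` or at least `370/1024`, has De Giorgi perimeter in the torus at least
`min((36π)^{1/3} v^{2/3}, 2 √(πv), 2)`. -/
theorem Vale.Agent.Results.P232.BExtRange.result (E : Set Vale.Agent.Lib.P232.R3)
    (hE : MeasurableSet E) (hper : Vale.Agent.Lib.P232.IsZ3Periodic E) (V v : ℝ)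
    (hVdef : V = (volume (E ∩ Vale.Agent.Lib.P232.Q3)).toReal) (hV : 0 < V) (hV1 : V < 1)
    (hv : v = min V (1 - V)) (hr : v ≤ (527 / 1024) ^ 2 ∨ 370 / 1024 ≤ v) :
    ENNReal.ofReal (min (min ((36 * Real.pi) ^ (1 / 3 : ℝ) * v ^ (2 / 3 : ℝ))
        (2 * Real.sqrt (Real.pi * v))) 2) ≤ Vale.Agent.Lib.P232.Perim E := by
  subst hVdef
  subst hv
  exact Vale.Agent.Lib.P232.mext_all hE hper hV hV1 hr
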